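import Vale.Agent.H28.P356.Bridge

/-!
# P356: the entropy density of gapped ground states is strictly below its maximum
-/

namespace Vale.Agent.Results.P356.EntropyDensity

open Finset Vale.Agent.P356.Stmt

/-- For all `q ≥ 2`, `R`, `J > 0`, `Δ > 0` there are `ε > 0` and `C` such that for every `L`, every
admissible Hamiltonian on `Λ_L` with spectral gap at least `Δ` and every region `A`,
`S_Ω(A) ≤ (1 - ε) min(|A|, |Λ_L ∖ A|) log q + C |∂A|`. -/
theorem result (q R : ℕ) (hq : 2 ≤ q) (J Δ : ℝ) (hJ : 0 < J) (hΔ : 0 < Δ) :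
    ∃ ε : ℝ, 0 < ε ∧ ∃ C : ℝ, ∀ (L : ℕ) (h : Finset (Site L) → Matrix (Conf q L) (Conf q L) ℂ)
      (E₀ : ℝ) (Ω : Conf q L → ℂ), Admissible R J h → Gapped (∑ X, h X) Δ E₀ Ω →
      ∀ A : Finset (Site L),
        entropy Ω A ≤ (1 - ε) * (min (#A : ℝ) (#(Aᶜ) : ℝ) * Real.log q) + C * bdry A :=
  Vale.Agent.P356.Bridge.main q R hq J Δ hJ hΔ

end Vale.Agent.Results.P356.EntropyDensity
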